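import Vale.Agent.P067.Defs
import Vale.Agent.P067.Main

open Vale.Agent.P067 in
theorem Vale.Agent.Results.P067.CobExp.result :
    ∀ d : ℕ, 3 ≤ d → ∃ D : ℕ, ∃ ε : ℝ, 0 < ε ∧ ∃ X : ℕ → Finset (Finset ℕ),
      (∀ m, IsPureComplex d (X m) ∧ IsConnected (X m) ∧ DegreeLE d (X m) D ∧
        IsCobExpander d (X m) ε) ∧
      Filter.Tendsto (fun m => (faces (X m) 0).card) Filter.atTop Filter.atTop :=
  fun d hd => main d (by omega)
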